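import Vale.Agent.P205.Torus

open scoped ContDiff

namespace Vale.Agent.Results.P205.TorusRationalTwist

/-- Let `g = E(x) dx² + 2 H(x) dx dy + G(x) dy²` be a smooth Riemannian metric on the torus
`ℝ² / (L ℤ × T ℤ)` invariant under translations in `y`, with rational twist
`(1/T) ∫₀ᴸ H/G dx`. Then `g` admits a `C^∞` isometric immersion into Euclidean `ℝ⁴`. -/
theorem result (L T : ℝ) (hL : 0 < L) (hT : 0 < T) (E H G : ℝ → ℝ)
    (hE : ContDiff ℝ ∞ E) (hH : ContDiff ℝ ∞ H) (hG : ContDiff ℝ ∞ G)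
    (pE : Function.Periodic E L) (pH : Function.Periodic H L) (pG : Function.Periodic G L)
    (hGpos : ∀ x, 0 < G x) (hdet : ∀ x, 0 < E x * G x - H x ^ 2)
    (htwist : ∃ q : ℚ, ∫ x in (0 : ℝ)..L, H x / G x = q * T) :
    ∃ Φ : ℝ × ℝ → EuclideanSpace ℝ (Fin 4),
      ContDiff ℝ ∞ Φ ∧ (∀ x y, Φ (x + L, y) = Φ (x, y)) ∧ (∀ x y, Φ (x, y + T) = Φ (x, y)) ∧
      ∀ p v w : ℝ × ℝ, inner ℝ (fderiv ℝ Φ p v) (fderiv ℝ Φ p w)
        = E p.1 * v.1 * w.1 + H p.1 * (v.1 * w.2 + v.2 * w.1) + G p.1 * v.2 * w.2 :=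
  Vale.Agent.P205.torus_immersion L T hL hT E H G hE hH hG pE pH pG hGpos hdet htwist

end Vale.Agent.Results.P205.TorusRationalTwist
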